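import Vale.Agent.P317.Main

/-! Common bases of two matroids of rank `r` such that every independent set of the first matroid
with at most `r - c` elements is independent in the second one: every base of the first matroid is
within `c` exchanges of a common base, so the common bases are at least a
`1 / ∑_{j ≤ c} C(r,j) C(n-r,j)` fraction of the bases of the first matroid. -/

namespace Vale.Agent.Results.P317.AgreeBelowTop

open Set

theorem result {α : Type*} [Finite α] (M₁ M₂ : Matroid α) (r c : ℕ) (hE : M₁.E = M₂.E)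
    (h₁ : M₁.eRank = r) (h₂ : M₂.eRank = r) (hpos : ∃ B, M₁.IsBase B ∧ M₂.IsBase B) :
    ((∀ I : Set α, M₁.Indep I → I.ncard + c ≤ r → M₂.Indep I) →
      (∀ B, M₁.IsBase B → ∃ B', M₁.IsBase B' ∧ M₂.IsBase B' ∧ (B \ B').ncard ≤ c) ∧
      {B : Set α | M₁.IsBase B}.ncard ≤
        (∑ j ∈ Finset.range (c + 1), r.choose j * (M₂.E.ncard - r).choose j) *
          {B : Set α | M₁.IsBase B ∧ M₂.IsBase B}.ncard) ∧
    ((∀ C : Set α, M₂.IsCircuit C → r < C.ncard + c) →
      ∀ I : Set α, M₁.Indep I → I.ncard + c ≤ r → M₂.Indep I) := by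
  refine ⟨fun hlow => ⟨?_, Vale.Agent.P317.main M₁ M₂ r c hE h₁ h₂ hlow hpos⟩, ?_⟩
  · obtain ⟨B0, h01, h02⟩ := hpos
    intro B hB
    exact Vale.Agent.P317.close_common M₁ M₂ r c hE h₁ h₂ hlow h01 h02 hB
  · intro hcirc I hI hc
    by_contra hdep
    have hd : M₂.Dep I := ⟨hdep, hE ▸ hI.subset_ground⟩
    obtain ⟨C, hCI, hC⟩ := hd.exists_isCircuit_subset
    have h1 := hcirc C hC
    have h2 := ncard_le_ncard hCI (Set.toFinite _)
    omega

end Vale.Agent.Results.P317.AgreeBelowTop
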