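import Mathlib

/-! Common bases of an arbitrary matroid and a paving matroid: they make up at least a
`1 / (1 + r (n - r))` fraction of all bases of the arbitrary matroid, unless there are none. -/

namespace Vale.Agent.Results.P317.PavingIntersection

open Set

/-- A matroid is paving if every circuit has at least as many elements as the rank. -/
def IsPaving {α : Type*} (M : Matroid α) : Prop :=
  ∀ C : Set α, M.IsCircuit C → M.eRank ≤ C.encard

/-- The number of bases. -/
noncomputable def numBases {α : Type*} (M : Matroid α) : ℕ :=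
  {B : Set α | M.IsBase B}.ncard

/-- The number of common bases. -/
noncomputable def numCommon {α : Type*} (M₁ M₂ : Matroid α) : ℕ :=
  {B : Set α | M₁.IsBase B ∧ M₂.IsBase B}.ncard

lemma indep_of_small {α : Type*} {M : Matroid α} (hp : IsPaving M) {I : Set α} (hIE : I ⊆ M.E)
    (hI : I.encard < M.eRank) : M.Indep I := by
  by_contra h
  have hd : M.Dep I := ⟨h, hIE⟩
  obtain ⟨C, hCI, hC⟩ := hd.exists_isCircuit_subset
  have h1 := hp C hC
  have h2 := encard_le_encard hCI
  exact absurd (lt_of_le_of_lt (h1.trans h2) hI) (lt_irrefl _)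

lemma key {α : Type*} [Finite α] {M₁ M₂ : Matroid α} (hr : M₁.eRank = M₂.eRank)
    (hp : IsPaving M₂) {B B0 : Set α} (hB : M₁.IsBase B) (hB2 : ¬ M₂.IsBase B)
    (hBE : B ⊆ M₂.E)
    (h01 : M₁.IsBase B0) (h02 : M₂.IsBase B0) :
    ∃ x ∈ B, ∃ y, y ∉ B ∧ M₁.IsBase (insert y B \ {x}) ∧ M₂.IsBase (insert y B \ {x}) := by
  have hBcard : B.encard = M₂.eRank := by rw [← hr]; exact hB.encard_eq_eRank
  -- a point of B0 outside the closure of B
  have hy : ∃ y ∈ B0, y ∉ M₂.closure B := by
    by_contra hcon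
    push Not at hcon
    have hsub : B0 ⊆ M₂.closure B := hcon
    have h1 : M₂.closure B0 ⊆ M₂.closure B := by
      have := M₂.closure_subset_closure hsub
      rwa [Matroid.closure_closure] at this
    rw [h02.closure_eq] at h1
    have hsp : M₂.Spanning B := by
      rw [Matroid.spanning_iff_closure_eq hBE]
      exact subset_antisymm (M₂.closure_subset_ground B) h1
    obtain ⟨B', hB', hB'B⟩ := hsp.exists_isBase_subset
    have hc : B.encard ≤ B'.encard := by rw [hBcard, hB'.encard_eq_eRank]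
    have : B' = B := (Set.toFinite B').eq_of_subset_of_encard_le hB'B hc
    exact hB2 (this ▸ hB')
  obtain ⟨y, hy0, hycl⟩ := hy
  have hyB : y ∉ B := fun h => hycl (M₂.subset_closure B hBE h)
  have hyE : y ∈ M₂.E := h02.subset_ground hy0
  -- exchange in M₁
  have hyI : M₁.Indep {y} := h01.indep.subset (singleton_subset_iff.2 hy0)
  obtain ⟨B', hB', hyB', hB'sub⟩ := hyI.exists_isBase_subset_union_isBase hB
  have hyB'' : y ∈ B' := hyB' rfl
  have hd : B' \ B = {y} := by
    ext z
    constructor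
    · rintro ⟨hz, hzB⟩
      rcases hB'sub hz with h | h
      · exact h
      · exact absurd h hzB
    · rintro rfl
      exact ⟨hyB'', hyB⟩
  have hd' : (B \ B').encard = 1 := by
    rw [hB.encard_sdiff_comm hB', hd, encard_singleton]
  obtain ⟨x, hx⟩ := encard_eq_one.1 hd'
  obtain ⟨f, hf, hfeq⟩ := hB.eq_exchange_of_sdiff_eq_singleton hB' hx
  have hfy : f = y := by
    have : f ∈ ({y} : Set α) := hd ▸ hf
    exact this
  subst hfy
  have hxB : x ∈ B := by
    have : x ∈ B \ B' := by rw [hx]; rfl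
    exact this.1
  refine ⟨x, hxB, f, hyB, hfeq ▸ hB', ?_⟩
  -- independence in M₂
  have hxf : x ≠ f := fun h => hyB (h ▸ hxB)
  have hset : insert f B \ {x} = insert f (B \ {x}) := by
    rw [insert_sdiff_of_notMem]
    simpa using hxf.symm
  have hsmall : (B \ {x}).encard < M₂.eRank := by
    rw [← hBcard]
    exact (Set.toFinite _).encard_lt_encard (sdiff_singleton_ssubset.2 hxB)
  have hind : M₂.Indep (B \ {x}) := indep_of_small hp (sdiff_subset.trans hBE) hsmall
  have hind2 : M₂.Indep (insert f (B \ {x})) := by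
    rw [hind.insert_indep_iff]
    left
    exact ⟨hyE, fun h => hycl (M₂.closure_subset_closure sdiff_subset h)⟩
  rw [hset]
  obtain ⟨B2, hB2', hsub2⟩ := hind2.exists_isBase_superset
  have hc : B2.encard ≤ (insert f (B \ {x})).encard := by
    rw [hB2'.encard_eq_eRank, ← hBcard, ← hset, ← hfeq, hB'.encard_eq_eRank, hB.encard_eq_eRank]
  have : insert f (B \ {x}) = B2 := (Set.toFinite _).eq_of_subset_of_encard_le hsub2 hc
  exact this ▸ hB2'

lemma count {α : Type*} [Finite α] (E : Set α) (r : ℕ) (N D : Set (Set α))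
    (hN : ∀ B ∈ N, B ⊆ E ∧ B.ncard = r) (hDE : ∀ B ∈ D, B ⊆ E)
    (hD : ∀ B ∈ D, ∃ x ∈ B, ∃ y, y ∉ B ∧ (insert y B \ {x}) ∈ N) :
    D.ncard ≤ N.ncard * (r * (E.ncard - r)) := by
  classical
  have hsub : D ⊆ ⋃ B' ∈ (Set.toFinite N).toFinset,
      (fun p : α × α => insert p.1 B' \ {p.2}) '' ((E \ B') ×ˢ B') := by
    intro B hB
    obtain ⟨x, hx, y, hy, hmem⟩ := hD B hB
    simp only [mem_iUnion]
    refine ⟨_, by simpa using hmem, (x, y), ?_, ?_⟩
    · have hxy : x ≠ y := fun h => hy (h ▸ hx)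
      refine ⟨⟨hDE B hB hx, ?_⟩, ?_⟩
      · simp
      · simp [hxy.symm]
    · ext z
      simp only [mem_sdiff, mem_insert_iff, mem_singleton_iff]
      constructor
      · rintro ⟨h | ⟨h | h, h2⟩, h3⟩
        · exact h ▸ hx
        · exact absurd h h3
        · exact h
      · intro hz
        have hzy : z ≠ y := fun h => hy (h ▸ hz)
        by_cases hzx : z = x
        · exact ⟨Or.inl hzx, hzy⟩
        · exact ⟨Or.inr ⟨Or.inr hz, hzx⟩, hzy⟩
  calc D.ncard ≤ _ := ncard_le_ncard hsub (Set.toFinite _)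
    _ ≤ ∑ B' ∈ (Set.toFinite N).toFinset,
          ((fun p : α × α => insert p.1 B' \ {p.2}) '' ((E \ B') ×ˢ B')).ncard :=
        Finset.set_ncard_biUnion_le _ _
    _ ≤ ∑ _B' ∈ (Set.toFinite N).toFinset, (r * (E.ncard - r)) := by
        refine Finset.sum_le_sum fun B' hB' => ?_
        have hB'N : B' ∈ N := by simpa using hB'
        obtain ⟨h1, h2⟩ := hN B' hB'N
        refine (ncard_image_le (Set.toFinite _)).trans ?_
        rw [ncard_prod, ncard_sdiff h1 (Set.toFinite _), h2, Nat.mul_comm]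
    _ = N.ncard * (r * (E.ncard - r)) := by
        rw [Finset.sum_const, smul_eq_mul, ncard_eq_toFinset_card N (Set.toFinite N)]

theorem result {α : Type*} [Finite α] (M₁ M₂ : Matroid α) (r : ℕ) (hE : M₁.E = M₂.E)
    (h₁ : M₁.eRank = r) (h₂ : M₂.eRank = r) (hp : IsPaving M₂) (hpos : 0 < numCommon M₁ M₂) :
    numBases M₁ ≤ (1 + r * (M₂.E.ncard - r)) * numCommon M₁ M₂ := by
  classical
  unfold numBases numCommon at *
  set N : Set (Set α) := {B | M₁.IsBase B ∧ M₂.IsBase B} with hNdef
  set D : Set (Set α) := {B | M₁.IsBase B ∧ ¬ M₂.IsBase B} with hDdef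
  obtain ⟨B0, hB0⟩ := (ncard_pos (Set.toFinite N)).1 hpos
  have hr : M₁.eRank = M₂.eRank := h₁.trans h₂.symm
  have hunion : {B | M₁.IsBase B} = N ∪ D := by
    ext B
    simp only [hNdef, hDdef, mem_ofPred_eq, mem_union]
    tauto
  have hc := count M₂.E r N D
    (fun B hB => ⟨hB.2.subset_ground, by
      have h := hB.2.encard_eq_eRank
      rw [h₂] at h
      rw [ncard_def, h]; rfl⟩)
    (fun B hB => hE ▸ hB.1.subset_ground)
    (fun B hB => by
      obtain ⟨x, hx, y, hy, ha, hb⟩ := key hr hp hB.1 hB.2 (hE ▸ hB.1.subset_ground) hB0.1 hB0.2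
      exact ⟨x, hx, y, hy, ha, hb⟩)
  rw [hunion]
  calc (N ∪ D).ncard ≤ N.ncard + D.ncard := ncard_union_le _ _
    _ ≤ N.ncard + N.ncard * (r * (M₂.E.ncard - r)) := by omega
    _ = (1 + r * (M₂.E.ncard - r)) * N.ncard := by ring

end Vale.Agent.Results.P317.PavingIntersection
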